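import Vale.Agent.Lib.P126.Main

/-!
# P126: a dimension-free duality bound for covering numbers (with exponential loss)

If an origin-symmetric convex body `K` is covered by at most `m` translates of `L`, then `L°` is
covered by at most `(2m+3)^m` translates of `3K°`; and if `L°` is covered by at most `m` translates
of `K°`, then `K` is covered by at most `(2m+3)^m` translates of `3L`.  No dependence on the
dimension.
-/

open scoped Pointwise

namespace Vale.Agent.Results.P126.DimensionFreeDuality

open _root_.P126

theorem result :
    ∀ (n : ℕ) (K L : Set (E n)), SymBody K → SymBody L → ∀ m : ℕ,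
      (Covers K L m → Covers (polar L) ((3 : ℝ) • polar K) ((2 * m + 3) ^ m)) ∧
      (Covers (polar L) (polar K) m → Covers K ((3 : ℝ) • L) ((2 * m + 3) ^ m)) :=
  fun _ _ _ hK hL _ => ⟨dual_cover hK hL, primal_cover hK hL⟩

end Vale.Agent.Results.P126.DimensionFreeDuality
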